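import Mathlib

/-!
# Ryser's conjecture for r-partite r-uniform hypergraphs of maximum degree at most two

An `r`-partite `r`-uniform hypergraph is encoded as a finite set `H` of edges
`e : Fin r → α`: the edge `e` contains, in part `i`, the vertex `(i, e i)`.
-/

namespace Vale.Agent.Results.P045.MaxDegreeTwo

open Finset

/-- `C` is a vertex cover of `H`: every edge contains a vertex of `C`. -/
def IsCover {r : ℕ} {α : Type} (H : Finset (Fin r → α)) (C : Finset (Fin r × α)) : Prop :=
  ∀ e ∈ H, ∃ i, (i, e i) ∈ C

/-- `M` is a matching of `H`: a set of pairwise disjoint edges of `H`. -/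
def IsMatching {r : ℕ} {α : Type} (H M : Finset (Fin r → α)) : Prop :=
  M ⊆ H ∧ ∀ e ∈ M, ∀ f ∈ M, e ≠ f → ∀ i, e i ≠ f i

/-- Pairing lemma: every hypergraph has a cover `C` and a matching `M` with `2|C| ≤ |H| + |M|`. -/
theorem pairing {r : ℕ} (hr : 0 < r) {α : Type} [DecidableEq α] :
    ∀ (k : ℕ) (H : Finset (Fin r → α)), H.card = k →
      ∃ (C : Finset (Fin r × α)) (M : Finset (Fin r → α)),
        IsCover H C ∧ IsMatching H M ∧ 2 * C.card ≤ H.card + M.card := by
  intro k
  induction k using Nat.strong_induction_on with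
  | _ k ih =>
    intro H hk
    by_cases hex : ∃ e ∈ H, ∃ f ∈ H, e ≠ f ∧ ∃ i, e i = f i
    · obtain ⟨e, he, f, hf, hne, i, hi⟩ := hex
      have hf' : f ∈ H.erase e := mem_erase.mpr ⟨fun h => hne h.symm, hf⟩
      have hc1 : (H.erase e).card = H.card - 1 := card_erase_of_mem he
      have hc2 : ((H.erase e).erase f).card = (H.erase e).card - 1 := card_erase_of_mem hf'
      have hpos : 2 ≤ H.card := by
        have : 1 ≤ (H.erase e).card := card_pos.mpr ⟨f, hf'⟩
        omega
      obtain ⟨C', M', hC', hM', hle⟩ :=
        ih ((H.erase e).erase f).card (by omega) ((H.erase e).erase f) rfl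
      refine ⟨insert (i, e i) C', M', ?_, ?_, ?_⟩
      · intro g hg
        by_cases hge : g = e
        · exact ⟨i, by rw [hge]; exact mem_insert_self _ _⟩
        · by_cases hgf : g = f
          · exact ⟨i, by rw [hgf, ← hi]; exact mem_insert_self _ _⟩
          · have : g ∈ (H.erase e).erase f := mem_erase.mpr ⟨hgf, mem_erase.mpr ⟨hge, hg⟩⟩
            obtain ⟨j, hj⟩ := hC' g this
            exact ⟨j, mem_insert_of_mem hj⟩
      · refine ⟨fun g hg => ?_, hM'.2⟩
        have := hM'.1 hg
        exact (mem_erase.mp (mem_erase.mp this).2).2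
      · have h1 : (insert (i, e i) C').card ≤ C'.card + 1 := card_insert_le _ _
        omega
    · -- no two distinct edges meet: `H` itself is a matching
      have hmatch : IsMatching H H := by
        refine ⟨Subset.refl _, ?_⟩
        intro e he f hf hne i hi
        exact hex ⟨e, he, f, hf, hne, i, hi⟩
      let i0 : Fin r := ⟨0, hr⟩
      refine ⟨H.image (fun e => (i0, e i0)), H, ?_, hmatch, ?_⟩
      · intro e he
        exact ⟨i0, mem_image.mpr ⟨e, he, rfl⟩⟩
      · have : (H.image (fun e => (i0, e i0))).card ≤ H.card := card_image_le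
        omega

/-- In a hypergraph of maximum degree at most two, a maximum matching `M` satisfies
`|H| ≤ (r+1)|M|`. -/
theorem card_le_of_deg_two {r : ℕ} (hr : 0 < r) {α : Type} [DecidableEq α]
    (H : Finset (Fin r → α))
    (hdeg : ∀ (i : Fin r) (x : α), (H.filter (fun e => e i = x)).card ≤ 2)
    (M : Finset (Fin r → α)) (hM : IsMatching H M)
    (hmax : ∀ M', IsMatching H M' → M'.card ≤ M.card) :
    H.card ≤ (r + 1) * M.card := by
  classical
  -- every edge meets an edge of `M`
  have hmeet : ∀ e ∈ H, ∃ f ∈ M, ∃ i, e i = f i := by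
    intro e he
    by_contra hcon
    push Not at hcon
    have heM : e ∉ M := fun h => hcon e h ⟨0, hr⟩ rfl
    have hins : IsMatching H (insert e M) := by
      refine ⟨?_, ?_⟩
      · intro g hg
        rcases mem_insert.mp hg with h | h
        · rw [h]; exact he
        · exact hM.1 h
      · intro g hg f hf hne i
        rcases mem_insert.mp hg with h | h
        · rcases mem_insert.mp hf with h' | h'
          · exact absurd (h.trans h'.symm) hne
          · rw [h]; exact hcon f h' i
        · rcases mem_insert.mp hf with h' | h'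
          · rw [h']; exact fun hh => hcon g h i hh.symm
          · exact hM.2 g h f h' hne i
    have := hmax _ hins
    rw [card_insert_of_notMem heM] at this
    omega
  -- the edges meeting a fixed edge `f` of `M` number at most `r + 1`
  have hstar : ∀ f ∈ M, (H.filter (fun e => ∃ i, e i = f i)).card ≤ r + 1 := by
    intro f hf
    have hfH : f ∈ H := hM.1 hf
    have hsub : H.filter (fun e => ∃ i, e i = f i) ⊆
        insert f ((univ : Finset (Fin r)).biUnion
          (fun i => (H.filter (fun e => e i = f i)).erase f)) := by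
      intro e he
      rw [mem_filter] at he
      obtain ⟨heH, i, hi⟩ := he
      by_cases hef : e = f
      · rw [hef]; exact mem_insert_self _ _
      · refine mem_insert_of_mem (mem_biUnion.mpr ⟨i, mem_univ _, ?_⟩)
        exact mem_erase.mpr ⟨hef, mem_filter.mpr ⟨heH, hi⟩⟩
    have hone : ∀ i : Fin r, ((H.filter (fun e => e i = f i)).erase f).card ≤ 1 := by
      intro i
      have hmem : f ∈ H.filter (fun e => e i = f i) := mem_filter.mpr ⟨hfH, rfl⟩
      rw [card_erase_of_mem hmem]
      have := hdeg i (f i)
      omega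
    calc (H.filter (fun e => ∃ i, e i = f i)).card
        ≤ (insert f ((univ : Finset (Fin r)).biUnion
            (fun i => (H.filter (fun e => e i = f i)).erase f))).card := card_le_card hsub
      _ ≤ ((univ : Finset (Fin r)).biUnion
            (fun i => (H.filter (fun e => e i = f i)).erase f)).card + 1 := card_insert_le _ _
      _ ≤ (∑ i : Fin r, ((H.filter (fun e => e i = f i)).erase f).card) + 1 :=
          Nat.add_le_add_right card_biUnion_le 1
      _ ≤ (∑ _i : Fin r, 1) + 1 := Nat.add_le_add_right (sum_le_sum (fun i _ => hone i)) 1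
      _ = r + 1 := by simp
  have hcov : H ⊆ M.biUnion (fun f => H.filter (fun e => ∃ i, e i = f i)) := by
    intro e he
    obtain ⟨f, hf, i, hi⟩ := hmeet e he
    exact mem_biUnion.mpr ⟨f, hf, mem_filter.mpr ⟨he, i, hi⟩⟩
  calc H.card ≤ (M.biUnion (fun f => H.filter (fun e => ∃ i, e i = f i))).card :=
        card_le_card hcov
    _ ≤ ∑ f ∈ M, (H.filter (fun e => ∃ i, e i = f i)).card := card_biUnion_le
    _ ≤ ∑ _f ∈ M, (r + 1) := sum_le_sum hstar
    _ = (r + 1) * M.card := by rw [sum_const, smul_eq_mul, mul_comm]

/-- **Ryser's inequality for maximum degree two.** Let `r ≥ 4` and let `H` be an `r`-partite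
`r`-uniform hypergraph in which every vertex lies in at most two edges.  If `M` is a maximum
matching of `H`, then `H` has a vertex cover with at most `(r - 1) * |M|` vertices, that is,
`τ(H) ≤ (r - 1) ν(H)`. -/
theorem result (r : ℕ) (hr : 4 ≤ r) (α : Type) [DecidableEq α] (H : Finset (Fin r → α))
    (hdeg : ∀ (i : Fin r) (x : α), (H.filter (fun e => e i = x)).card ≤ 2)
    (M : Finset (Fin r → α)) (hM : IsMatching H M)
    (hmax : ∀ M', IsMatching H M' → M'.card ≤ M.card) :
    ∃ C : Finset (Fin r × α), IsCover H C ∧ C.card ≤ (r - 1) * M.card := by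
  have hr0 : 0 < r := by omega
  obtain ⟨C, M', hC, hM', hle⟩ := pairing hr0 H.card H rfl
  refine ⟨C, hC, ?_⟩
  have h1 : H.card ≤ (r + 1) * M.card := card_le_of_deg_two hr0 H hdeg M hM hmax
  have h2 : M'.card ≤ M.card := hmax M' hM'
  obtain ⟨s, rfl⟩ : ∃ s, r = s + 4 := ⟨r - 4, by omega⟩
  have h3 : (s + 4 - 1) * M.card = (s + 3) * M.card := by congr 1
  rw [h3]
  nlinarith

end Vale.Agent.Results.P045.MaxDegreeTwo
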