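import Mathlib
import Vale.Agent.Results.P045.MaxDegreeTwo

/-!
# Ryser's conjecture for r-partite r-uniform hypergraphs with few edges

Same encoding as in `MaxDegreeTwo`: a hypergraph is a finite set `H` of edges `e : Fin r → α`,
the edge `e` containing the vertex `(i, e i)` of part `i`.
-/

namespace Vale.Agent.Results.P045.FewEdges

open Finset Vale.Agent.Results.P045.MaxDegreeTwo

/-- **Ryser's inequality for hypergraphs with few edges.** Let `r ≥ 2` and let `H` be an
`r`-partite `r`-uniform hypergraph with a maximum matching `M`.  If `H` has at most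
`(2 r - 3) * |M|` edges, then `H` has a vertex cover with at most `(r - 1) * |M|` vertices.
Hence a counterexample to Ryser's conjecture has more than `(2 r - 3) ν(H)` edges. -/
theorem result (r : ℕ) (hr : 2 ≤ r) (α : Type) [DecidableEq α] (H : Finset (Fin r → α))
    (M : Finset (Fin r → α)) (hM : IsMatching H M)
    (hmax : ∀ M', IsMatching H M' → M'.card ≤ M.card)
    (hfew : H.card ≤ (2 * r - 3) * M.card) :
    ∃ C : Finset (Fin r × α), IsCover H C ∧ C.card ≤ (r - 1) * M.card := by
  have hr0 : 0 < r := by omega
  obtain ⟨C, M', hC, hM', hle⟩ := pairing hr0 H.card H rfl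
  refine ⟨C, hC, ?_⟩
  have h2 : M'.card ≤ M.card := hmax M' hM'
  obtain ⟨s, rfl⟩ : ∃ s, r = s + 2 := ⟨r - 2, by omega⟩
  have h3 : (s + 2 - 1) * M.card = (s + 1) * M.card := by congr 1
  have h4 : 2 * (s + 2) - 3 = 2 * s + 1 := by omega
  rw [h3]
  rw [h4] at hfew
  nlinarith

end Vale.Agent.Results.P045.FewEdges
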