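import Mathlib
import Vale.Agent.Results.P045.MaxDegreeTwo
import Vale.Agent.Helper16.RyserGreedy

/-!
# A cover bound for all r-partite r-uniform hypergraphs, and Ryser's inequality for
maximum degree at most three

Same encoding as in `MaxDegreeTwo`: a hypergraph is a finite set `H` of edges `e : Fin r → α`,
the edge `e` containing the vertex `(i, e i)` of part `i`.  The final statement uses no
definitions of this project: matchings and covers are written out.
-/

namespace Vale.Agent.Results.P045.MaxDegreeThree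

open Finset Vale.Agent.Results.P045.MaxDegreeTwo Vale.Agent.Helper16.RyserGreedy

/-- **A cover bound for all `r`-partite `r`-uniform hypergraphs, and Ryser's inequality for
maximum degree at most three.**  Let `r ≥ 2`, let `H` be an `r`-partite `r`-uniform hypergraph
and `M ⊆ H` a maximum matching (a set of pairwise disjoint edges such that no set of pairwise
disjoint edges of `H` is larger).  Then
(A) some set `C` of vertices meeting every edge of `H` has `6|C| ≤ 2|H| + (r + 4)|M|`;
(B) if `2|H| ≤ (5 r - 10)|M|`, some set of at most `(r - 1)|M|` vertices meets every edge;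
(C) if `r ≥ 12` and every vertex lies in at most three edges, some set of at most
`(r - 1)|M|` vertices meets every edge. -/
theorem result (r : ℕ) (hr : 2 ≤ r) (α : Type) [DecidableEq α] (H M : Finset (Fin r → α))
    (hMH : M ⊆ H)
    (hM : ∀ e ∈ M, ∀ f ∈ M, e ≠ f → ∀ i, e i ≠ f i)
    (hmax : ∀ M' : Finset (Fin r → α), M' ⊆ H →
      (∀ e ∈ M', ∀ f ∈ M', e ≠ f → ∀ i, e i ≠ f i) → M'.card ≤ M.card) :
    (∃ C : Finset (Fin r × α), (∀ e ∈ H, ∃ i, (i, e i) ∈ C) ∧
        6 * C.card ≤ 2 * H.card + (r + 4) * M.card) ∧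
    (2 * H.card ≤ (5 * r - 10) * M.card →
      ∃ C : Finset (Fin r × α), (∀ e ∈ H, ∃ i, (i, e i) ∈ C) ∧ C.card ≤ (r - 1) * M.card) ∧
    (12 ≤ r → (∀ (i : Fin r) (x : α), (H.filter (fun e => e i = x)).card ≤ 3) →
      ∃ C : Finset (Fin r × α), (∀ e ∈ H, ∃ i, (i, e i) ∈ C) ∧ C.card ≤ (r - 1) * M.card) := by
  have hr0 : 0 < r := by omega
  have hM' : IsMatching H M := ⟨hMH, hM⟩
  have hmax' : ∀ M', IsMatching H M' → M'.card ≤ M.card := fun M' h => hmax M' h.1 h.2
  obtain ⟨C, hC, hle⟩ := cover_bound hr0 H M hmax'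
  -- (B) from (A)
  have hB : 2 * H.card ≤ (5 * r - 10) * M.card → C.card ≤ (r - 1) * M.card := by
    intro hfew
    obtain ⟨s, rfl⟩ : ∃ s, r = s + 2 := ⟨r - 2, by omega⟩
    have h3 : (s + 2 - 1) * M.card = (s + 1) * M.card := by congr 1
    have h4 : 5 * (s + 2) - 10 = 5 * s := by omega
    rw [h3]
    rw [h4] at hfew
    nlinarith
  refine ⟨⟨C, hC, hle⟩, fun hfew => ⟨C, hC, hB hfew⟩, fun hr12 hdeg => ⟨C, hC, hB ?_⟩⟩
  have h1 : H.card ≤ (2 * r + 1) * M.card := card_le_of_deg hr0 2 H hdeg M hM' hmax'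
  obtain ⟨s, rfl⟩ : ∃ s, r = s + 12 := ⟨r - 12, by omega⟩
  have h4 : 5 * (s + 12) - 10 = 5 * s + 50 := by omega
  rw [h4]
  nlinarith

end Vale.Agent.Results.P045.MaxDegreeThree
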