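import Mathlib
import Vale.Agent.Results.P045.MaxDegreeTwo
import Vale.Agent.Results.P045.FewEdges

/-!
# Ryser's inequality for sparse r-partite r-uniform hypergraphs, in plain form

An `r`-partite `r`-uniform hypergraph is a finite set `H` of edges `e : Fin r → α`; the edge `e`
contains the vertex `(i, e i)` of part `i`.  The statement below uses no definitions of this
project: matchings and covers are written out.
-/

namespace Vale.Agent.Results.P045.SparseHypergraphsPlain

open Finset

/-- **Ryser's inequality for hypergraphs of maximum degree two or with few edges.**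
Let `H` be an `r`-partite `r`-uniform hypergraph and `M ⊆ H` a maximum matching (a set of
pairwise disjoint edges such that no set of pairwise disjoint edges of `H` is larger).  If
either `r ≥ 4` and every vertex lies in at most two edges, or `r ≥ 2` and `H` has at most
`(2 r - 3) * |M|` edges, then some set `C` of at most `(r - 1) * |M|` vertices meets every
edge of `H`. -/
theorem result (r : ℕ) (α : Type) [DecidableEq α] (H M : Finset (Fin r → α))
    (hMH : M ⊆ H)
    (hM : ∀ e ∈ M, ∀ f ∈ M, e ≠ f → ∀ i, e i ≠ f i)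
    (hmax : ∀ M' : Finset (Fin r → α), M' ⊆ H →
      (∀ e ∈ M', ∀ f ∈ M', e ≠ f → ∀ i, e i ≠ f i) → M'.card ≤ M.card)
    (hcase : (4 ≤ r ∧ ∀ (i : Fin r) (x : α), (H.filter (fun e => e i = x)).card ≤ 2) ∨
      (2 ≤ r ∧ H.card ≤ (2 * r - 3) * M.card)) :
    ∃ C : Finset (Fin r × α), (∀ e ∈ H, ∃ i, (i, e i) ∈ C) ∧ C.card ≤ (r - 1) * M.card := by
  have hM' : Vale.Agent.Results.P045.MaxDegreeTwo.IsMatching H M := ⟨hMH, hM⟩
  have hmax' : ∀ M', Vale.Agent.Results.P045.MaxDegreeTwo.IsMatching H M' →
      M'.card ≤ M.card := fun M' h => hmax M' h.1 h.2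
  rcases hcase with ⟨hr, hdeg⟩ | ⟨hr, hfew⟩
  · obtain ⟨C, hC, hle⟩ :=
      Vale.Agent.Results.P045.MaxDegreeTwo.result r hr α H hdeg M hM' hmax'
    exact ⟨C, hC, hle⟩
  · obtain ⟨C, hC, hle⟩ :=
      Vale.Agent.Results.P045.FewEdges.result r hr α H M hM' hmax' hfew
    exact ⟨C, hC, hle⟩

end Vale.Agent.Results.P045.SparseHypergraphsPlain
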